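import Vale.Agent.P184.Amenable
import Vale.Agent.P184.Cat0Groups
import Vale.Agent.P184.PsiCriterion
import Vale.Agent.P184.Metric

/-!
# P184: four results on the Hattori-Stallings trace of idempotent matrices over `ℓ¹(G)`

(1) The statement of the `ℓ¹`-Bass conjecture for every group acting by isometries, coboundedly and
metrically properly, on a metric space with the Bruhat-Tits `CN` inequality (`CAT(0)` groups).

For an arbitrary discrete group `G` and `g₀ : G` the coefficient at the class of `g₀` of every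
idempotent matrix over `ℓ¹(G)` vanishes in each of the following cases:

(2) there is a real function `Ψ` on `G` whose left differences `Ψ (h y) - Ψ y` are bounded in `y`
for each `h`, with `Ψ (y c) = Ψ y + ψ c` for all `c` in the centraliser of `g₀`, and `ψ g₀ ≠ 0`;

(3) `g₀` is undistorted for some subadditive `L : G → ℝ` and its centraliser satisfies the Foelner
condition;

(4) `G` acts by isometries on a metric space satisfying the strong bolicity inequality `(B1)` and
`g₀` has positive translation length.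
-/

open scoped BigOperators

namespace Vale.Agent.Results.P184.AllCases

universe u v

/-- `e` is an idempotent `q × q` matrix over `ℓ¹(G)`. -/
def IsIdem (G : Type u) [Group G] (q : ℕ) (e : Fin q → Fin q → G → ℂ) : Prop :=
  (∀ i j, Summable fun g => ‖e i j g‖) ∧
    ∀ i j g, ∑ k, ∑' h, e i k h * e k j (h⁻¹ * g) = e i j g

/-- The trace coefficient at the conjugacy class of `g₀` vanishes for all idempotent matrices. -/
def VanishAt (G : Type u) [Group G] (g₀ : G) : Prop :=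
  ∀ (q : ℕ) (e : Fin q → Fin q → G → ℂ), IsIdem G q e →
    ∑' x : {x : G // IsConj g₀ x}, ∑ i, e i i x = 0

/-- The statement of the `ℓ¹`-Bass conjecture for `G`. -/
def Bass (G : Type u) [Group G] : Prop :=
  ∀ (q : ℕ) (e : Fin q → Fin q → G → ℂ), IsIdem G q e →
    ∃ F : Finset (ConjClasses G), (∀ C ∈ F, ∀ g ∈ C.carrier, IsOfFinOrder g) ∧
      ∀ C, C ∉ F → ∑' x : C.carrier, ∑ i, e i i x = 0

open Classical in
theorem result :
    (∀ (G : Type u) [Group G] (X : Type v) [MetricSpace X] [MulAction G X] [IsIsometricSMul G X]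
      (o : X), Vale.Agent.P184.IsCN X → (∃ R : ℝ, ∀ x : X, ∃ h : G, dist x (h • o) ≤ R) →
      (∀ r : ℝ, {h : G | dist o (h • o) ≤ r}.Finite) → Bass G) ∧
    (∀ (G : Type u) [Group G] (g₀ : G) (Ψ ψ : G → ℝ),
      (∀ h, ∃ M, ∀ y, |Ψ (h * y) - Ψ y| ≤ M) →
      (∀ y c, c * g₀ = g₀ * c → Ψ (y * c) = Ψ y + ψ c) → ψ g₀ ≠ 0 → VanishAt G g₀) ∧
    (∀ (G : Type u) [Group G] (g₀ : G) (L : G → ℝ) (ε : ℝ),
      (∀ x y, L (x * y) ≤ L x + L y) → 0 < ε → (∀ n : ℕ, ε * n ≤ L (g₀ ^ n)) →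
      (∀ (S : Finset G) (η : ℝ), (∀ s ∈ S, s * g₀ = g₀ * s) → 0 < η →
        ∃ F : Finset G, F.Nonempty ∧ (∀ c ∈ F, c * g₀ = g₀ * c) ∧
          ∀ s ∈ S, ((F.image (s * ·) \ F).card : ℝ) ≤ η * F.card) → VanishAt G g₀) ∧
    (∀ (G : Type u) [Group G] (X : Type v) [MetricSpace X] [MulAction G X] [IsIsometricSMul G X]
      (g₀ : G) (o : X) (ε : ℝ),
      (∀ η r : ℝ, 0 < η → 0 < r → ∃ R : ℝ, ∀ x₁ x₂ y₁ y₂ : X,
        dist x₁ y₁ + dist x₂ y₂ ≤ r → R ≤ dist x₁ x₂ + dist y₁ y₂ →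
        dist x₁ x₂ + dist y₁ y₂ ≤ dist x₁ y₂ + dist x₂ y₁ + η) →
      0 < ε → (∀ n : ℕ, ε * n ≤ dist o (g₀ ^ n • o)) → VanishAt G g₀) := by
  refine ⟨?_, ?_, ?_, ?_⟩
  · intro G _ X _ _ _ o hX hcob hprop q e he
    exact Vale.Agent.P184.cat0_groups q e he.1 he.2 hX o hcob hprop
  · intro G _ g₀ Ψ ψ h1 h2 h3 q e he
    exact Vale.Agent.P184.psi_vanishing q e he.1 he.2 g₀ Ψ ψ h1 h2 h3
  · intro G _ g₀ L ε hL hε hdrift hFol q e he
    exact Vale.Agent.P184.amenable_vanishing q e he.1 he.2 L hL g₀ ε hε hdrift hFol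
  · intro G _ X _ _ _ g₀ o ε hbolic hε hdrift q e he
    exact Vale.Agent.P184.bolic_vanishing q e he.1 he.2 hbolic g₀ o ε hε hdrift

end Vale.Agent.Results.P184.AllCases
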