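import Vale.Agent.P184.Amenable

/-!
# P184: vanishing at undistorted elements with amenable centraliser

`G` is an arbitrary discrete group, `L : G → ℝ` a subadditive function (for instance a word
length), `g₀` an element with `L (g₀ ^ n) ≥ ε n` (undistorted with respect to `L`) whose
centraliser satisfies the Foelner condition (that is, is amenable).  Then the Hattori-Stallings
coefficient at the class of `g₀` of every idempotent matrix over `ℓ¹(G)` vanishes.
-/

open scoped BigOperators

open Classical in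
theorem Vale.Agent.Results.P184.AmenableCentralizer.result
    (G : Type*) [Group G]
    (L : G → ℝ) (hL : ∀ x y, L (x * y) ≤ L x + L y)
    (g₀ : G) (ε : ℝ) (hε : 0 < ε) (hdrift : ∀ n : ℕ, ε * n ≤ L (g₀ ^ n))
    (hFol : ∀ (S : Finset G) (η : ℝ), (∀ s ∈ S, s * g₀ = g₀ * s) → 0 < η →
      ∃ F : Finset G, F.Nonempty ∧ (∀ c ∈ F, c * g₀ = g₀ * c) ∧
        ∀ s ∈ S, ((F.image (s * ·) \ F).card : ℝ) ≤ η * F.card)
    (q : ℕ) (e : Fin q → Fin q → G → ℂ)
    (he : ∀ i j, Summable fun g => ‖e i j g‖)
    (hidem : ∀ i j g, ∑ k, ∑' h, e i k h * e k j (h⁻¹ * g) = e i j g) :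
    ∑' x : {x : G // IsConj g₀ x}, ∑ i, e i i x = 0 :=
  Vale.Agent.P184.amenable_vanishing q e he hidem L hL g₀ ε hε hdrift hFol
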