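import Vale.Agent.P184.Cat0Groups

/-!
# P184: the statement of the conjecture for groups acting geometrically on CAT(0) spaces

`G` acts by isometries on a metric space `X` satisfying the Bruhat-Tits `CN` inequality
(`Vale.Agent.P184.IsCN`, the midpoint form of the `CAT(0)` condition); the action is cobounded
and metrically proper.  Then for every idempotent matrix `e` over `ℓ¹(G)` there is a finite set
`F` of conjugacy classes of finite-order elements outside of which all Hattori-Stallings
coefficients of `e` vanish.
-/

open scoped BigOperators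

theorem Vale.Agent.Results.P184.Cat0Groups.result
    (G : Type*) [Group G] (X : Type*) [MetricSpace X] [MulAction G X] [IsIsometricSMul G X]
    (hX : Vale.Agent.P184.IsCN X) (o : X)
    (hcob : ∃ R : ℝ, ∀ x : X, ∃ h : G, dist x (h • o) ≤ R)
    (hprop : ∀ r : ℝ, {h : G | dist o (h • o) ≤ r}.Finite)
    (q : ℕ) (e : Fin q → Fin q → G → ℂ)
    (he : ∀ i j, Summable fun g => ‖e i j g‖)
    (hidem : ∀ i j g, ∑ k, ∑' h, e i k h * e k j (h⁻¹ * g) = e i j g) :
    ∃ F : Finset (ConjClasses G), (∀ C ∈ F, ∀ g ∈ C.carrier, IsOfFinOrder g) ∧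
      ∀ C, C ∉ F → ∑' x : C.carrier, ∑ i, e i i x = 0 :=
  Vale.Agent.P184.cat0_groups q e he hidem hX o hcob hprop
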