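import Vale.Agent.P184.Metric

/-!
# P184: vanishing at classes of positive translation length in strongly bolic spaces

An arbitrary discrete group `G` acts by isometries (no properness, no cocompactness) on a
metric space `X` satisfying the strong form of the bolicity inequality `(B1)` of
Kasparov-Skandalis and Lafforgue.  If `g₀` has positive translation length,
`d(o, g₀ⁿ o) ≥ ε n`, then the Hattori-Stallings coefficient at the class of `g₀` of every
idempotent matrix over `ℓ¹(G)` vanishes.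
-/

open scoped BigOperators

theorem Vale.Agent.Results.P184.StronglyBolic.result
    (G : Type*) [Group G] (X : Type*) [MetricSpace X] [MulAction G X] [IsIsometricSMul G X]
    (hbolic : ∀ η r : ℝ, 0 < η → 0 < r → ∃ R : ℝ, ∀ x₁ x₂ y₁ y₂ : X,
      dist x₁ y₁ + dist x₂ y₂ ≤ r → R ≤ dist x₁ x₂ + dist y₁ y₂ →
      dist x₁ x₂ + dist y₁ y₂ ≤ dist x₁ y₂ + dist x₂ y₁ + η)
    (g₀ : G) (o : X) (ε : ℝ) (hε : 0 < ε) (hdrift : ∀ n : ℕ, ε * n ≤ dist o (g₀ ^ n • o))
    (q : ℕ) (e : Fin q → Fin q → G → ℂ)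
    (he : ∀ i j, Summable fun g => ‖e i j g‖)
    (hidem : ∀ i j g, ∑ k, ∑' h, e i k h * e k j (h⁻¹ * g) = e i j g) :
    ∑' x : {x : G // IsConj g₀ x}, ∑ i, e i i x = 0 :=
  Vale.Agent.P184.bolic_vanishing q e he hidem hbolic g₀ o ε hε hdrift
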